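import Mathlib

/-!
Final real arithmetic for the corner-pattern removal bound of P037: from the general
sampling inequality (valid for all sample sizes `a ≤ m`, `b` and all cut parameters `lam > 0`)
to the explicit polynomial bound `e ^ 13 * n ^ 4 ≤ 2 * 10 ^ 10 * N`.
-/

namespace Vale.Agent.Lib.P037.helper8

/-- Existence of a natural number `a` with `x ≤ a < x + 1` for a nonnegative real `x`. -/
theorem exists_nat_ceil (x : ℝ) (hx : 0 ≤ x) : ∃ a : ℕ, x ≤ (a : ℝ) ∧ (a : ℝ) < x + 1 :=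
  ⟨⌈x⌉₊, Nat.le_ceil x, Nat.ceil_lt_add_one hx⟩

/-- Core inequality after the sample sizes are chosen. -/
theorem arithL_core (n e N A B M lam : ℝ) (hn : 0 < n) (he : 0 < e) (_hN : 0 ≤ N)
    (hA : 0 < A) (hB : 0 < B) (hM : 0 ≤ M)
    (hA1 : 6 ≤ A * e) (hB1 : 6 * A ≤ B * e) (hM1 : 6 * B ^ 2 ≤ (M + 1) * e)
    (hlam : lam * (6 * B ^ 2) = e * n)
    (hg : (A + 1) * (B + 1) * (M + 1) * lam * e * n ^ 4 ≤
        (A + 1) * (B + 1) * (M + 1) * B ^ 2 * n * N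
        + (A + 1) * (B + 1) * (M + 1) * B ^ 2 * lam ^ 2 * n ^ 3
        + (A + 1) * (B + 1) * B ^ 2 * lam * n ^ 4
        + (B + 1) * (M + 1) * lam * n ^ 4
        + (A + 1) * (M + 1) * A * lam * n ^ 4
        + (A + 1) * (B + 1) * (M + 1) * lam * M * B * N
        + (A + 1) * (B + 1) * (M + 1) * lam * M ^ 2 * B * N) :
    e ^ 2 * n ^ 4 ≤ 3 * (6 * B ^ 4 + e * M * B * (1 + M)) * N := by
  have hlam0 : 0 < lam := by
    have h6 : 0 < 6 * B ^ 2 := by positivity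
    have h7 : 0 < lam * (6 * B ^ 2) := by rw [hlam]; positivity
    by_contra hcon
    have : lam * (6 * B ^ 2) ≤ 0 := mul_nonpos_of_nonpos_of_nonneg (not_lt.mp hcon) h6.le
    linarith
  have hP : 0 < (A + 1) * (B + 1) * (M + 1) := by positivity
  have hw : 0 ≤ lam * n ^ 4 := by positivity
  -- the second term
  have t2 : (A + 1) * (B + 1) * (M + 1) * B ^ 2 * lam ^ 2 * n ^ 3
      = (A + 1) * (B + 1) * (M + 1) * (e / 6) * (lam * n ^ 4) := by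
    have : B ^ 2 * lam = e * n / 6 := by linarith
    calc (A + 1) * (B + 1) * (M + 1) * B ^ 2 * lam ^ 2 * n ^ 3
        = (A + 1) * (B + 1) * (M + 1) * (B ^ 2 * lam) * lam * n ^ 3 := by ring
      _ = (A + 1) * (B + 1) * (M + 1) * (e * n / 6) * lam * n ^ 3 := by rw [this]
      _ = (A + 1) * (B + 1) * (M + 1) * (e / 6) * (lam * n ^ 4) := by ring
  -- the third term
  have t3 : (A + 1) * (B + 1) * B ^ 2 * lam * n ^ 4
      ≤ (A + 1) * (B + 1) * (M + 1) * (e / 6) * (lam * n ^ 4) := by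
    have h1 : B ^ 2 ≤ (M + 1) * (e / 6) := by linarith
    have h2 : 0 ≤ (A + 1) * (B + 1) * (lam * n ^ 4) := by positivity
    calc (A + 1) * (B + 1) * B ^ 2 * lam * n ^ 4
        = (A + 1) * (B + 1) * (lam * n ^ 4) * B ^ 2 := by ring
      _ ≤ (A + 1) * (B + 1) * (lam * n ^ 4) * ((M + 1) * (e / 6)) :=
          mul_le_mul_of_nonneg_left h1 h2
      _ = (A + 1) * (B + 1) * (M + 1) * (e / 6) * (lam * n ^ 4) := by ring
  -- the fourth term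
  have t4 : (B + 1) * (M + 1) * lam * n ^ 4
      ≤ (A + 1) * (B + 1) * (M + 1) * (e / 6) * (lam * n ^ 4) := by
    have h1 : 1 ≤ (A + 1) * (e / 6) := by nlinarith
    have h2 : 0 ≤ (B + 1) * (M + 1) * (lam * n ^ 4) := by positivity
    calc (B + 1) * (M + 1) * lam * n ^ 4
        = (B + 1) * (M + 1) * (lam * n ^ 4) * 1 := by ring
      _ ≤ (B + 1) * (M + 1) * (lam * n ^ 4) * ((A + 1) * (e / 6)) :=
          mul_le_mul_of_nonneg_left h1 h2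
      _ = (A + 1) * (B + 1) * (M + 1) * (e / 6) * (lam * n ^ 4) := by ring
  -- the fifth term
  have t5 : (A + 1) * (M + 1) * A * lam * n ^ 4
      ≤ (A + 1) * (B + 1) * (M + 1) * (e / 6) * (lam * n ^ 4) := by
    have h1 : A ≤ (B + 1) * (e / 6) := by nlinarith
    have h2 : 0 ≤ (A + 1) * (M + 1) * (lam * n ^ 4) := by positivity
    calc (A + 1) * (M + 1) * A * lam * n ^ 4
        = (A + 1) * (M + 1) * (lam * n ^ 4) * A := by ring
      _ ≤ (A + 1) * (M + 1) * (lam * n ^ 4) * ((B + 1) * (e / 6)) :=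
          mul_le_mul_of_nonneg_left h1 h2
      _ = (A + 1) * (B + 1) * (M + 1) * (e / 6) * (lam * n ^ 4) := by ring
  -- collect
  have hsum : (A + 1) * (B + 1) * (M + 1) * (lam * e * n ^ 4 / 3)
      ≤ (A + 1) * (B + 1) * (M + 1) * (B ^ 2 * n * N + lam * M * B * (1 + M) * N) := by
    rw [t2] at hg
    nlinarith [t3, t4, t5, hg]
  have hdiv : lam * e * n ^ 4 / 3 ≤ B ^ 2 * n * N + lam * M * B * (1 + M) * N :=
    le_of_mul_le_mul_left hsum hP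
  -- multiply by 6 B^2 and use the definition of lam
  have h6 : 0 ≤ 6 * B ^ 2 := by positivity
  have hmul := mul_le_mul_of_nonneg_left hdiv h6
  have e1 : 6 * B ^ 2 * (lam * e * n ^ 4 / 3) = n * (e ^ 2 * n ^ 4 / 3) := by
    calc 6 * B ^ 2 * (lam * e * n ^ 4 / 3) = (lam * (6 * B ^ 2)) * e * n ^ 4 / 3 := by ring
      _ = (e * n) * e * n ^ 4 / 3 := by rw [hlam]
      _ = n * (e ^ 2 * n ^ 4 / 3) := by ring
  have e2 : 6 * B ^ 2 * (B ^ 2 * n * N + lam * M * B * (1 + M) * N)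
      = n * ((6 * B ^ 4 + e * M * B * (1 + M)) * N) := by
    calc 6 * B ^ 2 * (B ^ 2 * n * N + lam * M * B * (1 + M) * N)
        = 6 * B ^ 4 * n * N + (lam * (6 * B ^ 2)) * M * B * (1 + M) * N := by ring
      _ = 6 * B ^ 4 * n * N + (e * n) * M * B * (1 + M) * N := by rw [hlam]
      _ = n * ((6 * B ^ 4 + e * M * B * (1 + M)) * N) := by ring
  rw [e1, e2] at hmul
  have := le_of_mul_le_mul_left hmul hn
  linarith

/-- Numeric bound on the constant. -/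
theorem arithL_const (e B M : ℝ) (he : 0 < e) (he1 : e < 1) (hB : 0 < B) (hM : 0 ≤ M)
    (hB2 : B * e ^ 2 ≤ 43) (hM2 : M * e ^ 5 ≤ 11102) :
    e ^ 11 * (3 * (6 * B ^ 4 + e * M * B * (1 + M))) ≤ 2 * 10 ^ 10 := by
  have hx0 : 0 ≤ B * e ^ 2 := by positivity
  have hy0 : 0 ≤ M * e ^ 5 := by positivity
  have he5 : e ^ 5 ≤ 1 := pow_le_one₀ he.le he1.le
  have he3 : e ^ 3 ≤ 1 := pow_le_one₀ he.le he1.le
  have he3' : 0 ≤ e ^ 3 := by positivity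
  have hz : (1 + M) * e ^ 5 ≤ 11103 := by nlinarith
  have hz0 : 0 ≤ (1 + M) * e ^ 5 := by positivity
  have hx4 : (B * e ^ 2) ^ 4 ≤ 43 ^ 4 := pow_le_pow_left₀ hx0 hB2 4
  have hx4' : 0 ≤ (B * e ^ 2) ^ 4 := by positivity
  have h1 : (B * e ^ 2) ^ 4 * e ^ 3 ≤ 43 ^ 4 := by nlinarith
  have h2 : (M * e ^ 5) * (B * e ^ 2) ≤ 11102 * 43 := by nlinarith
  have h2' : 0 ≤ (M * e ^ 5) * (B * e ^ 2) := by positivity
  have h3 : (M * e ^ 5) * (B * e ^ 2) * ((1 + M) * e ^ 5) ≤ 11102 * 43 * 11103 := by nlinarith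
  have key : e ^ 11 * (3 * (6 * B ^ 4 + e * M * B * (1 + M)))
      = 18 * ((B * e ^ 2) ^ 4 * e ^ 3) + 3 * ((M * e ^ 5) * (B * e ^ 2) * ((1 + M) * e ^ 5)) := by
    ring
  rw [key]
  norm_num at h1 h3 ⊢
  linarith

/-- The final arithmetic of the corner-pattern removal bound. -/
theorem arithL (n e N : ℝ) (hn : 0 < n) (he : 0 < e) (he1 : e < 1) (hN : 0 ≤ N)
    (hgen : ∀ (a b m : ℕ) (lam : ℝ), a ≤ m → 0 < lam →
      ((a:ℝ)+1) * ((b:ℝ)+1) * ((m:ℝ)+1) * lam * e * n^4 ≤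
        ((a:ℝ)+1) * ((b:ℝ)+1) * ((m:ℝ)+1) * (b:ℝ)^2 * n * N
        + ((a:ℝ)+1) * ((b:ℝ)+1) * ((m:ℝ)+1) * (b:ℝ)^2 * lam^2 * n^3
        + ((a:ℝ)+1) * ((b:ℝ)+1) * (b:ℝ)^2 * lam * n^4
        + ((b:ℝ)+1) * ((m:ℝ)+1) * lam * n^4
        + ((a:ℝ)+1) * ((m:ℝ)+1) * (a:ℝ) * lam * n^4
        + ((a:ℝ)+1) * ((b:ℝ)+1) * ((m:ℝ)+1) * lam * (m:ℝ) * (b:ℝ) * N
        + ((a:ℝ)+1) * ((b:ℝ)+1) * ((m:ℝ)+1) * lam * (m:ℝ)^2 * (b:ℝ) * N) :
    e ^ 13 * n ^ 4 ≤ 2 * 10 ^ 10 * N := by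
  -- choose a
  obtain ⟨a, ha1, ha2⟩ := exists_nat_ceil (6 / e) (by positivity)
  have hA1 : 6 ≤ (a : ℝ) * e := by
    have := (div_le_iff₀ he).mp ha1
    linarith
  have hA2 : (a : ℝ) * e ≤ 7 := by
    have h := mul_lt_mul_of_pos_right ha2 he
    have h' : (6 / e + 1) * e = 6 + e := by field_simp
    rw [h'] at h
    linarith
  have hA : 0 < (a : ℝ) := by
    by_contra hcon
    have : (a : ℝ) * e ≤ 0 := mul_nonpos_of_nonpos_of_nonneg (not_lt.mp hcon) he.le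
    linarith
  -- choose b
  obtain ⟨b, hb1, hb2⟩ := exists_nat_ceil (6 * (a : ℝ) / e) (by positivity)
  have hB1 : 6 * (a : ℝ) ≤ (b : ℝ) * e := by
    have := (div_le_iff₀ he).mp hb1
    linarith
  have hB : 0 < (b : ℝ) := by
    by_contra hcon
    have : (b : ℝ) * e ≤ 0 := mul_nonpos_of_nonpos_of_nonneg (not_lt.mp hcon) he.le
    linarith
  have hB2 : (b : ℝ) * e ^ 2 ≤ 43 := by
    have h := mul_lt_mul_of_pos_right hb2 he
    have h' : (6 * (a : ℝ) / e + 1) * e = 6 * (a : ℝ) + e := by field_simp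
    rw [h'] at h
    -- b e < 6 a + e, so b e^2 < 6 a e + e^2 ≤ 42 + 1
    have h2 : (b : ℝ) * e * e ≤ (6 * (a : ℝ) + e) * e := mul_le_mul_of_nonneg_right h.le he.le
    nlinarith
  -- choose c and m
  obtain ⟨c, hc1, hc2⟩ := exists_nat_ceil (6 * (b : ℝ) ^ 2 / e) (by positivity)
  have hC1 : 6 * (b : ℝ) ^ 2 ≤ (c : ℝ) * e := by
    have := (div_le_iff₀ he).mp hc1
    linarith
  have hC2 : (c : ℝ) * e ≤ 6 * (b : ℝ) ^ 2 + e := by
    have h := mul_lt_mul_of_pos_right hc2 he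
    have h' : (6 * (b : ℝ) ^ 2 / e + 1) * e = 6 * (b : ℝ) ^ 2 + e := by field_simp
    rw [h'] at h
    exact h.le
  set m : ℕ := a + c with hm
  have hmcast : (m : ℝ) = (a : ℝ) + (c : ℝ) := by rw [hm]; push_cast; ring
  have hM : 0 ≤ (m : ℝ) := Nat.cast_nonneg m
  have hc0 : 0 ≤ (c : ℝ) := Nat.cast_nonneg c
  have hM1 : 6 * (b : ℝ) ^ 2 ≤ ((m : ℝ) + 1) * e := by
    rw [hmcast]
    nlinarith
  have hM2 : (m : ℝ) * e ^ 5 ≤ 11102 := by
    rw [hmcast]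
    have he4 : e ^ 4 ≤ 1 := pow_le_one₀ he.le he1.le
    have he4' : 0 ≤ e ^ 4 := by positivity
    have he5 : e ^ 5 ≤ 1 := pow_le_one₀ he.le he1.le
    have hx0 : 0 ≤ (b : ℝ) * e ^ 2 := by positivity
    have hxx : ((b : ℝ) * e ^ 2) ^ 2 ≤ 43 ^ 2 := pow_le_pow_left₀ hx0 hB2 2
    -- a e^5 = (a e) e^4 ≤ 7
    have h1 : (a : ℝ) * e ^ 5 ≤ 7 := by
      have : (a : ℝ) * e ^ 5 = ((a : ℝ) * e) * e ^ 4 := by ring
      rw [this]
      nlinarith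
    -- c e^5 = (c e) e^4 ≤ (6 b^2 + e) e^4 = 6 (b e^2)^2 + e^5
    have h2 : (c : ℝ) * e ^ 5 ≤ 6 * 43 ^ 2 + 1 := by
      have e1 : (c : ℝ) * e ^ 5 = ((c : ℝ) * e) * e ^ 4 := by ring
      have e2 : (6 * (b : ℝ) ^ 2 + e) * e ^ 4 = 6 * ((b : ℝ) * e ^ 2) ^ 2 + e ^ 5 := by ring
      have h3 : ((c : ℝ) * e) * e ^ 4 ≤ (6 * (b : ℝ) ^ 2 + e) * e ^ 4 :=
        mul_le_mul_of_nonneg_right hC2 he4'
      rw [e1]
      rw [e2] at h3
      linarith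
    norm_num at h2
    linarith
  -- the cut parameter
  have h6B : 0 < 6 * (b : ℝ) ^ 2 := by positivity
  set lam : ℝ := e * n / (6 * (b : ℝ) ^ 2) with hlamdef
  have hlam0 : 0 < lam := by positivity
  have hlam : lam * (6 * (b : ℝ) ^ 2) = e * n := by
    rw [hlamdef]; field_simp
  have ham : a ≤ m := by omega
  have hg := hgen a b m lam ham hlam0
  have hcore := arithL_core n e N (a : ℝ) (b : ℝ) (m : ℝ) lam hn he hN hA hB hM hA1 hB1 hM1 hlam hg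
  have hconst := arithL_const e (b : ℝ) (m : ℝ) he he1 hB hM hB2 hM2
  have he11 : 0 ≤ e ^ 11 := by positivity
  calc e ^ 13 * n ^ 4 = e ^ 11 * (e ^ 2 * n ^ 4) := by ring
    _ ≤ e ^ 11 * (3 * (6 * (b : ℝ) ^ 4 + e * (m : ℝ) * (b : ℝ) * (1 + (m : ℝ))) * N) :=
        mul_le_mul_of_nonneg_left hcore he11
    _ = (e ^ 11 * (3 * (6 * (b : ℝ) ^ 4 + e * (m : ℝ) * (b : ℝ) * (1 + (m : ℝ))))) * N := by ring
    _ ≤ 2 * 10 ^ 10 * N := mul_le_mul_of_nonneg_right hconst hN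

end Vale.Agent.Lib.P037.helper8
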